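import Vale.Agent.P207.N4.Dim
import Vale.Agent.P207.N4.H76.Dir

/-!
# P207, N3: Hölder dependence of the tubes on the frame

(H1) of helper803: the map `y ↦ A y (s, u)` is Hölder, uniformly on compact sets, if the direction
`W y u` is Hölder in `y` and the exponential map is Lipschitz. (helper863)
-/

open Set Filter Topology Metric Real
open scoped ContDiff
open Vale.Agent.P207.N4.H76 Vale.Agent.P207.N3.H76

set_option linter.unusedSectionVars false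

noncomputable section

namespace Vale.Agent.P207.N4.H863

open Vale.Agent.P207.N3 Vale.Agent.P207.N3.H863

variable [Dim]

variable {Γ X Y : Type} [Group Γ] [MetricSpace X] [ProperSpace X] [MetricSpace Y]
  [ProperSpace Y] [MulAction Γ X] [MulAction Γ Y] [IsIsometricSMul Γ X] [IsIsometricSMul Γ Y]
  {G : Geo Γ X Y} {V : Type} [NormedAddCommGroup V] [NormedSpace ℝ V] {j : Y ≃ₜ V}

/-- on bounded sets a Lipschitz estimate gives a Hölder estimate -/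
theorem dist_le_rpow {Q : Set X} (hQ : IsCompact Q) {α : ℝ} (hα : 0 < α) (hα1 : α ≤ 1) :
    ∃ B : ℝ, 0 < B ∧ ∀ x ∈ Q, ∀ x' ∈ Q, dist x x' ≤ B * dist x x' ^ α := by
  obtain ⟨B, hB⟩ := Metric.isBounded_iff.1 hQ.isBounded
  refine ⟨max B 1, by positivity, fun x hx x' hx' => ?_⟩
  have hB1 : 1 ≤ max B 1 := le_max_right _ _
  have hd : 0 ≤ dist x x' := dist_nonneg
  rcases le_or_gt (dist x x') 1 with h | h
  · have h3 : dist x x' ≤ dist x x' ^ α := by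
      have h4 := Real.rpow_le_rpow_of_exponent_ge' hd h hα.le hα1
      rwa [Real.rpow_one] at h4
    have h5 : 0 ≤ dist x x' ^ α := Real.rpow_nonneg hd _
    nlinarith
  · have h3 : 1 ≤ dist x x' ^ α := Real.one_le_rpow h.le hα.le
    have h4 : dist x x' ≤ max B 1 := (hB hx hx').trans (le_max_left _ _)
    nlinarith

/-- The tubes depend on the frame in a Hölder way: literally the field `hold` of `Geo.In3`. -/
theorem hold_of (D : G.Dir j) {r : ℝ} (hr : r < D.ε)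
    (hl : ∀ Q : Set X, IsCompact Q → ∀ S₀ : ℝ, ∃ C : ℝ, ∀ y ∈ Q, ∀ y' ∈ Q,
      ∀ u ∈ closedBall (0 : E2) r, ∀ w ∈ closedBall (0 : E3) S₀, ∀ w' ∈ closedBall (0 : E3) S₀,
      ‖j (G.E (D.lf y u) w) - j (G.E (D.lf y' u) w')‖ ≤ C * (dist y y' + ‖w - w'‖))
    (hW : ∀ Q : Set X, IsCompact Q → ∃ C α : ℝ, 0 < α ∧ α ≤ 1 ∧ ∀ y ∈ Q, ∀ y' ∈ Q,
      ∀ u ∈ closedBall (0 : E2) r, ‖D.W y u - D.W y' u‖ ≤ C * dist y y' ^ α) :
    ∀ Q : Set X, IsCompact Q → ∀ S₀ : ℝ, ∃ C α : ℝ, 0 < α ∧ ∀ y ∈ Q, ∀ y' ∈ Q,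
      ∀ s ∈ Icc (-S₀) S₀, ∀ v ∈ closedBall (0 : E2) r,
      ‖j (G.E (D.lf y v) (s • D.W y v)) - j (G.E (D.lf y' v) (s • D.W y' v))‖ ≤
        C * dist y y' ^ α := by
  intro Q hQ S₀
  obtain ⟨C₁, α, hα, hα1, h1⟩ := hW Q hQ
  obtain ⟨C₂, h2⟩ := hl Q hQ |S₀|
  obtain ⟨B, hB, h3⟩ := dist_le_rpow hQ hα hα1
  refine ⟨|C₂| * (B + |S₀| * |C₁|), α, hα, ?_⟩
  intro y hy y' hy' s hs u hu
  have hu' : u ∈ ball (0 : E2) D.ε := closedBall_subset_ball hr hu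
  have hs' : |s| ≤ |S₀| := by
    rw [abs_le]
    exact ⟨by linarith [hs.1, le_abs_self S₀], hs.2.trans (le_abs_self S₀)⟩
  have hw : ∀ z, s • D.W z u ∈ closedBall (0 : E3) |S₀| := by
    intro z
    rw [mem_closedBall_zero_iff, norm_smul, D.W_norm z u hu', mul_one, Real.norm_eq_abs]
    exact hs'
  refine (h2 y hy y' hy' u hu _ (hw y) _ (hw y')).trans ?_
  have hd : 0 ≤ dist y y' ^ α := Real.rpow_nonneg dist_nonneg _
  have h4 : ‖s • D.W y u - s • D.W y' u‖ ≤ |S₀| * (|C₁| * dist y y' ^ α) := by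
    rw [← smul_sub, norm_smul, Real.norm_eq_abs]
    refine mul_le_mul hs' ?_ (norm_nonneg _) (abs_nonneg _)
    exact (h1 y hy y' hy' u hu).trans (mul_le_mul_of_nonneg_right (le_abs_self _) hd)
  have h5 := h3 y hy y' hy'
  calc C₂ * (dist y y' + ‖s • D.W y u - s • D.W y' u‖)
      ≤ |C₂| * (dist y y' + ‖s • D.W y u - s • D.W y' u‖) :=
        mul_le_mul_of_nonneg_right (le_abs_self _) (by positivity)
    _ ≤ |C₂| * (B * dist y y' ^ α + |S₀| * (|C₁| * dist y y' ^ α)) := by gcongr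
    _ = _ := by ring

/-- The tubes depend on the frame in a Hölder way. -/
theorem holder_A (o : Y) (D : G.Dir j) {r : ℝ} (hr : r < D.ε)
    (hl : ∀ Q : Set X, IsCompact Q → ∀ S₀ : ℝ, ∃ C : ℝ, ∀ y ∈ Q, ∀ y' ∈ Q,
      ∀ u ∈ closedBall (0 : E2) r, ∀ w ∈ closedBall (0 : E3) S₀, ∀ w' ∈ closedBall (0 : E3) S₀,
      ‖j (G.E (D.lf y u) w) - j (G.E (D.lf y' u) w')‖ ≤ C * (dist y y' + ‖w - w'‖))
    (hW : ∀ Q : Set X, IsCompact Q → ∃ C α : ℝ, 0 < α ∧ α ≤ 1 ∧ ∀ y ∈ Q, ∀ y' ∈ Q,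
      ∀ u ∈ closedBall (0 : E2) r, ‖D.W y u - D.W y' u‖ ≤ C * dist y y' ^ α) :
    ∀ Q : Set X, IsCompact Q → ∀ S₀ : ℝ, ∃ C α : ℝ, 0 < α ∧ ∀ y ∈ Q, ∀ y' ∈ Q,
      ∀ s ∈ Icc (-S₀) S₀, ∀ u ∈ closedBall (0 : E2) r,
      ‖G.A o j y (s, u) - G.A o j y' (s, u)‖ ≤ C * dist y y' ^ α := by
  intro Q hQ S₀
  obtain ⟨C, α, hα, H⟩ := hold_of D hr hl hW Q hQ S₀
  refine ⟨C, α, hα, fun y hy y' hy' s hs u hu => ?_⟩
  have hu' : u ∈ ball (0 : E2) D.ε := closedBall_subset_ball hr hu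
  rw [D.A_eq o y s hu', D.A_eq o y' s hu']
  exact H y hy y' hy' s hs u hu

variable [FiniteDimensional ℝ V]

/-- **(H1)** for the slice data of the geometry: literally the input of helper803's `holder`. -/
theorem H1_slc {o : Y} (D : G.Dir j) {r : ℝ} (hr : r < D.ε)
    (hl : ∀ Q : Set X, IsCompact Q → ∀ S₀ : ℝ, ∃ C : ℝ, ∀ y ∈ Q, ∀ y' ∈ Q,
      ∀ u ∈ closedBall (0 : E2) r, ∀ w ∈ closedBall (0 : E3) S₀, ∀ w' ∈ closedBall (0 : E3) S₀,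
      ‖j (G.E (D.lf y u) w) - j (G.E (D.lf y' u) w')‖ ≤ C * (dist y y' + ‖w - w'‖))
    (hW : ∀ Q : Set X, IsCompact Q → ∃ C α : ℝ, 0 < α ∧ α ≤ 1 ∧ ∀ y ∈ Q, ∀ y' ∈ Q,
      ∀ u ∈ closedBall (0 : E2) r, ‖D.W y u - D.W y' u‖ ≤ C * dist y y' ^ α)
    (S : G.Sm3 o j) {r₀ : ℝ} (hr₀ : (G.pre S).Small r₀) (h3 : 3 * r₀ ≤ r) :
    ∀ Q : Set X, IsCompact Q → ∀ S₀ : ℝ, ∃ C α : ℝ, 0 < α ∧ ∀ y ∈ Q, ∀ y' ∈ Q,
      ∀ s ∈ Icc (-S₀) S₀, ∀ v ∈ closedBall (0 : E2) 3,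
      ‖(G.slc S hr₀).A y (s, v) - (G.slc S hr₀).A y' (s, v)‖ ≤ C * dist y y' ^ α := by
  intro Q hQ S₀
  obtain ⟨C, α, hα, h1⟩ := holder_A o D hr hl hW Q hQ S₀
  refine ⟨C, α, hα, fun y hy y' hy' s hs v hv => ?_⟩
  rw [Geo.slc_A, Geo.slc_A]
  refine h1 y hy y' hy' s hs _ ?_
  rw [mem_closedBall_zero_iff] at hv ⊢
  rw [norm_smul, Real.norm_eq_abs, abs_of_pos hr₀.pos]
  have := hr₀.pos
  nlinarith

end Vale.Agent.P207.N4.H863
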